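import Vale.Agent.P292.FixB

/-! P292: an automorphism of finite order of a simple Lie algebra has an extremal eigenvector. -/

open LieAlgebra Module LieSubalgebra

namespace Vale.Agent.P292

variable {G : Type} [LieRing G] [LieAlgebra ℂ G] [Module.Finite ℂ G]

theorem exists_engel_solv (s : G →ₗ⁅ℂ⁆ G) {m : ℕ} (hm : 0 < m) (hs : ∀ x, s^[m] x = x) :
    ∃ a, s a = a ∧ IsSolvable (engel ℂ a) := by
  obtain ⟨_, ⟨a, ha, rfl⟩, hmin⟩ := (wellFounded_lt (α := Submodule ℂ G)).has_min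
    {P | ∃ a, s a = a ∧ (engel ℂ a).toSubmodule = P} ⟨_, 0, map_zero s, rfl⟩
  refine ⟨a, ha, ?_⟩
  let U : LieSubalgebra ℂ G :=
    { LinearMap.eqLocus (s : G →ₗ[ℂ] G) LinearMap.id with
      lie_mem' := fun {a b} ha hb => by
        have ha' : s a = a := ha
        have hb' : s b = b := hb
        show s ⁅a, b⁆ = ⁅a, b⁆
        rw [LieHom.map_lie, ha', hb'] }
  have hbot := engel_isBot_of_isMin (K := ℂ) (L := G)
    ((Cardinal.natCast_lt_aleph0.trans_le (Cardinal.aleph0_le_mk ℂ)).le) (U ⊓ engel ℂ a)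
    ⟨engel ℂ a, a, ⟨ha, self_mem_engel ℂ a⟩, rfl⟩ inf_le_right (by
      rintro ⟨_, y, hy, rfl⟩ hle
      by_contra h
      exact hmin _ ⟨y, hy.1, rfl⟩ (lt_of_le_not_ge hle h))
  have h1 : ∀ (j : ℕ) x, s ((ad ℂ G a ^ j) x) = (ad ℂ G a ^ j) (s x) := by
    intro j x
    induction j with
    | zero => rfl
    | succ j ih => rw [pow_succ', End.mul_apply, End.mul_apply, ad_apply, ad_apply,
        LieHom.map_lie, ha, ih]
  have h2 : ∀ x : engel ℂ a, (s.comp (engel ℂ a).incl) x ∈ engel ℂ a := by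
    rintro ⟨x, hx⟩
    obtain ⟨j, hj⟩ := (mem_engel_iff ℂ a x).1 hx
    exact (mem_engel_iff ℂ a _).2 ⟨j, (h1 j x).symm.trans (by rw [hj, map_zero])⟩
  let s' : engel ℂ a →ₗ⁅ℂ⁆ engel ℂ a :=
    { LinearMap.codRestrict (engel ℂ a).toSubmodule
        (s.comp (engel ℂ a).incl).toLinearMap h2 with
      map_lie' := fun {x y} => Subtype.ext (s.map_lie x.1 y.1) }
  refine solv_of_fix s' hm (fun x => Subtype.ext ?_) fun b hb => ?_
  · exact (Function.Semiconj.iterate_right (f := Subtype.val) (ga := s') (gb := s)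
      (fun _ => rfl) m x).trans (hs _)
  have h3 : engel ℂ a ≤ engel ℂ b.1 :=
    hbot ⟨engel ℂ b.1, b.1, ⟨congrArg Subtype.val hb, b.2⟩, rfl⟩
  refine End.isNilpotent_iff_of_finite.2 fun x => ?_
  obtain ⟨j, hj⟩ := (mem_engel_iff ℂ b.1 x.1).1 (h3 x.2)
  refine ⟨j, Subtype.ext (Eq.trans ?_ hj)⟩
  clear hj
  induction j with
  | zero => rfl
  | succ j ih => rw [pow_succ', pow_succ', End.mul_apply, End.mul_apply, ad_apply, ad_apply,
      LieSubalgebra.coe_bracket, ih]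

theorem exists_fix_gen [IsSimple ℂ G] (s : G →ₗ⁅ℂ⁆ G) {m : ℕ} (hm : 0 < m)
    (hs : ∀ x, s^[m] x = x) :
    ∃ (e : G) (c : ℂ), e ≠ 0 ∧ s e = c • e ∧ (∀ z, ∃ r : ℂ, ⁅e, ⁅e, z⁆⁆ = r • e) ∧
      ∀ P : Submodule ℂ G, e ∈ P → (∀ y, IsNilpotent (ad ℂ G y) → ∀ v ∈ P, ⁅y, v⁆ ∈ P) →
        ∀ v, v ∈ P := by
  classical
  obtain ⟨a, ha, hsol⟩ := exists_engel_solv s hm hs
  set E : ℂ → Submodule ℂ G := (ad ℂ G a).maxGenEigenspace with hE
  have htop : ⨆ μ, E μ = ⊤ := End.iSup_maxGenEigenspace_eq_top _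
  have hind : iSupIndep E := End.independent_maxGenEigenspace _
  have hlie : ∀ {μ ν y z}, y ∈ E μ → z ∈ E ν → ⁅y, z⁆ ∈ E (μ + ν) := fun hy hz =>
    LieModule.lie_mem_maxGenEigenspace_toEnd hy hz
  have hall : ∀ P : Submodule ℂ G, (∀ μ, ∀ z ∈ E μ, z ∈ P) → ∀ z, z ∈ P := fun P h z =>
    (htop.ge.trans (iSup_le h)) Submodule.mem_top
  have hsym : ∀ μ, E (-μ) = ⊥ → E μ = ⊥ := by
    intro μ h
    refine eq_bot_iff.2 fun y hy => (IsKilling.killingForm_nondegenerate ℂ G).1 y ?_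
    refine hall (LinearMap.ker (killingForm ℂ G y)) fun ν z hz => ?_
    by_cases h1 : ν = -μ
    · rw [h1, h] at hz
      rw [hz]; exact Submodule.zero_mem _
    refine LinearMap.trace_eq_zero_of_mapsTo_ne
      (DirectSum.isInternal_submodule_of_iSupIndep_of_iSup_eq_top hind htop)
      (fun γ => μ + (ν + γ)) (fun γ h2 => h1 (by linear_combination h2))
      (f := ad ℂ G y ∘ₗ ad ℂ G z) fun γ w hw => hlie hy (hlie hz hw)
  let o : ℂ → ℝ ×ₗ ℝ := fun μ => toLex (μ.re, μ.im)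
  have ho : ∀ μ ν, o (μ + ν) = o μ + o ν := fun μ ν => rfl
  have ho0 : o 0 = 0 := rfl
  have hoi : ∀ μ ν, o μ = o ν → μ = ν := fun μ ν h =>
    Complex.ext (congrArg (fun p => (ofLex p).1) h) (congrArg (fun p => (ofLex p).2) h)
  have hne : {μ | E μ ≠ ⊥}.Nonempty := by
    by_contra h
    have h1 : ∀ z : G, z ∈ (⊥ : Submodule ℂ G) := hall ⊥ fun μ z hz => by
      by_contra h2
      exact h ⟨μ, fun h3 => h2 (h3 ▸ hz)⟩
    exact IsSimple.non_abelian ℂ (L := G) ⟨fun x y => h1 _⟩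
  obtain ⟨l, hl, hmax⟩ := Set.exists_max_image _ o (Submodule.finite_ne_bot_of_iSupIndep hind) hne
  have hhi : ∀ μ, o l < o μ → E μ = ⊥ := fun μ h => by
    by_contra h1
    exact (hmax μ h1).not_gt h
  have h0 : ∀ z : engel ℂ a, z.1 ∈ E 0 := fun z => z.2
  let V : LieSubmodule ℂ (engel ℂ a) G :=
    { E l with lie_mem := fun {z y} hy => zero_add l ▸ hlie (h0 z) hy }
  have : Nontrivial V := Submodule.nontrivial_iff_ne_bot.2 hl
  obtain ⟨χ, hχ⟩ := LieModule.exists_nontrivial_weightSpace_of_isSolvable ℂ (engel ℂ a) V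
  obtain ⟨⟨⟨e, he⟩, hw⟩, he0⟩ := exists_ne (0 : LieModule.weightSpace V χ)
  replace he0 : e ≠ 0 := fun h => he0 (Subtype.ext (Subtype.ext h))
  replace he : e ∈ E l := he
  replace hw : ∀ z ∈ E 0, ∃ r : ℂ, ⁅z, e⁆ = r • e := fun z hz =>
    ⟨χ ⟨z, hz⟩, congrArg Subtype.val ((LieModule.mem_weightSpace _ _).1 hw ⟨z, hz⟩)⟩
  let I : Submodule ℂ G := sInf {P | e ∈ P ∧ ∀ μ, o μ < 0 → ∀ y ∈ E μ, ∀ v ∈ P, ⁅y, v⁆ ∈ P}
  have hI1 : e ∈ I := Submodule.mem_sInf.2 fun P hP => hP.1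
  have hI2 : ∀ μ, o μ < 0 → ∀ y ∈ E μ, ∀ v ∈ I, ⁅y, v⁆ ∈ I := fun μ hμ y hy v hv =>
    Submodule.mem_sInf.2 fun P hP => hP.2 μ hμ y hy v (Submodule.mem_sInf.1 hv P hP)
  have hI3 : I ≤ I ⊓ ⨅ z : G, I.comap (ad ℂ G z) := by
    refine sInf_le ⟨⟨hI1, (Submodule.mem_iInf _).2 fun z => ?_⟩, fun μ hμ y hy v hv => ?_⟩
    · have h1 := hall (I.comap (-ad ℂ G e)) (fun μ z hz => ?_) z
      · exact (lie_skew z e ▸ h1 : ⁅z, e⁆ ∈ I)
      show -⁅e, z⁆ ∈ I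
      rw [lie_skew]
      rcases lt_trichotomy (o μ) 0 with h | h | h
      · exact hI2 μ h z hz e hI1
      · obtain ⟨r, hr⟩ := hw z (hoi μ 0 h ▸ hz)
        rw [hr]; exact I.smul_mem r hI1
      · have h2 := hlie hz he
        rw [hhi _ (by rw [ho]; exact lt_add_of_pos_left _ h)] at h2
        rw [h2]; exact I.zero_mem
    · have h1 := (Submodule.mem_iInf _).1 hv.2
      refine ⟨hI2 μ hμ y hy v hv.1, (Submodule.mem_iInf _).2 fun z => ?_⟩
      show ⁅z, ⁅y, v⁆⁆ ∈ I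
      rw [leibniz_lie]
      exact I.add_mem (h1 _) (hI2 μ hμ y hy _ (h1 z))
  let J : LieIdeal ℂ G := { I with lie_mem := fun {z v} hv => (Submodule.mem_iInf _).1 (hI3 hv).2 z }
  have hJ : J = ⊤ := (IsSimple.eq_bot_or_eq_top J).resolve_left fun h => he0 (by
    have h1 : e ∈ J := hI1
    rwa [h] at h1)
  have hW : I ≤ (ℂ ∙ e) ⊔ ⨆ (μ) (_ : o μ < o l), E μ := by
    refine sInf_le ⟨Submodule.mem_sup_left (Submodule.mem_span_singleton_self e),
      fun μ hμ y hy v hv => Submodule.mem_sup_right ?_⟩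
    have h1 : ∀ ν, o ν ≤ o l → E ν ≤ (⨆ (μ) (_ : o μ < o l), E μ).comap (ad ℂ G y) :=
      fun ν hν w hw => Submodule.mem_iSup_of_mem (μ + ν) (Submodule.mem_iSup_of_mem
        (by rw [ho]; exact add_lt_of_neg_of_le hμ hν) (hlie hy hw))
    exact sup_le ((Submodule.span_singleton_le_iff_mem _ _).2 (h1 l le_rfl he))
      (iSup₂_le fun ν hν => h1 ν hν.le) hv
  have hline : ∀ v ∈ E l, ∃ r : ℂ, v = r • e := by
    intro v hv
    have h1 : v ∈ J := hJ ▸ LieSubmodule.mem_top v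
    obtain ⟨x, hx, w, hw', rfl⟩ := Submodule.mem_sup.1 (hW h1)
    obtain ⟨r, rfl⟩ := Submodule.mem_span_singleton.1 hx
    have h2 : w ∈ E l := by simpa using (E l).sub_mem hv ((E l).smul_mem r he)
    have h3 : w ∈ ⨆ (μ) (_ : μ ≠ l), E μ :=
      (iSup₂_le fun ν hν => le_iSup₂_of_le ν (fun h => hν.ne (congrArg o h)) le_rfl :
        (⨆ (μ) (_ : o μ < o l), E μ) ≤ _) hw'
    exact ⟨r, by rw [Submodule.disjoint_def.1 (hind l) w h2 h3, add_zero]⟩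
  have hse : s e ∈ E l := by
    refine End.mapsTo_maxGenEigenspace_of_comm (g := (s : G →ₗ[ℂ] G)) ?_ l he
    ext x
    show ⁅a, s x⁆ = s ⁅a, x⁆
    rw [LieHom.map_lie, ha]
  obtain ⟨c, hc⟩ := hline _ hse
  refine ⟨e, c, he0, hc, fun z => ?_, fun P h1 h2 v => ?_⟩
  swap
  · refine (sInf_le ⟨h1, fun μ hμ y hy => h2 y ?_⟩ : I ≤ P) (hJ ▸ LieSubmodule.mem_top v : v ∈ J)
    refine End.isNilpotent_iff_of_finite.2 fun x => ?_
    have h3 := hall ((ad ℂ G y).maxGenEigenspace 0) (fun ν w hw => ?_) x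
    · simpa [End.mem_maxGenEigenspace] using h3
    have h4 : ∀ k : ℕ, (ad ℂ G y ^ k) w ∈ E (k * μ + ν) := by
      intro k
      induction k with
      | zero => simpa using hw
      | succ k ih =>
        rw [pow_succ', End.mul_apply, Nat.cast_succ, add_mul, one_mul, add_comm _ μ, add_assoc]
        exact hlie hy ih
    have h5 : μ ≠ 0 := fun h => hμ.ne (congrArg o h)
    obtain ⟨_, ⟨k, rfl⟩, hk⟩ := (Set.infinite_range_of_injective (f := fun k : ℕ => k * μ + ν)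
      fun i j h => by simpa [h5] using h).exists_notMem_finite
      (Submodule.finite_ne_bot_of_iSupIndep hind)
    have h6 := h4 k
    rw [not_not.1 hk] at h6
    simp only [End.mem_maxGenEigenspace, zero_smul, sub_zero]
    exact ⟨k, h6⟩
  have h1 := hall ((ℂ ∙ e).comap (ad ℂ G e ∘ₗ ad ℂ G e)) (fun μ z hz => ?_) z
  · obtain ⟨r, hr⟩ := Submodule.mem_span_singleton.1 h1
    exact ⟨r, hr.symm⟩
  have h2 := hlie he (hlie he hz)
  show ⁅e, ⁅e, z⁆⁆ ∈ ℂ ∙ e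
  rcases lt_trichotomy (o (l + μ)) 0 with h | h | h
  · have h3 : o l < o (-μ) := by
      have h4 := ho (l + μ) (-μ)
      rw [add_neg_cancel_right] at h4
      rw [h4]; exact add_lt_of_neg_left _ h
    rw [hsym μ (hhi _ h3)] at hz
    rw [hz, lie_zero, lie_zero]; exact Submodule.zero_mem _
  · rw [hoi _ 0 h, add_zero] at h2
    obtain ⟨r, hr⟩ := hline _ h2
    exact Submodule.mem_span_singleton.2 ⟨r, hr.symm⟩
  · rw [hhi _ (by rw [ho]; exact lt_add_of_pos_right _ h)] at h2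
    rw [h2]; exact Submodule.zero_mem _

theorem exists_fix [IsSimple ℂ G] (s : G →ₗ⁅ℂ⁆ G) {m : ℕ} (hm : 0 < m) (hs : ∀ x, s^[m] x = x) :
    ∃ (e : G) (c : ℂ), e ≠ 0 ∧ s e = c • e ∧ ∀ z, ∃ r : ℂ, ⁅e, ⁅e, z⁆⁆ = r • e := by
  obtain ⟨e, c, h1, h2, h3, -⟩ := exists_fix_gen s hm hs
  exact ⟨e, c, h1, h2, h3⟩

end Vale.Agent.P292
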