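import Mathlib

/-! P292: a Lie algebra with nondegenerate Killing form and an automorphism of finite order whose
fixed vectors are ad-nilpotent is zero. -/

open LieAlgebra Module Polynomial

namespace Vale.Agent.P292

variable {S : Type} [LieRing S] [LieAlgebra ℂ S] [Module.Finite ℂ S]

theorem fix_ind (s : S →ₗ⁅ℂ⁆ S) {m : ℕ} (hm : 0 < m) (hs : ∀ x, s^[m] x = x) {ζ : ℂ}
    (hζ : IsPrimitiveRoot ζ m) (P : Submodule ℂ S)
    (h : ∀ i < m, ∀ x, s x = ζ ^ i • x → x ∈ P) (x : S) : x ∈ P := by
  have hss : End.IsSemisimple (s : S →ₗ[ℂ] S) := by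
    refine End.isSemisimple_of_squarefree_aeval_eq_zero (p := X ^ m - C 1)
      (separable_X_pow_sub_C (1 : ℂ) (by exact_mod_cast hm.ne') one_ne_zero).squarefree ?_
    ext y
    simp only [map_sub, map_pow, aeval_X, map_one, LinearMap.sub_apply, End.one_apply,
      LinearMap.zero_apply, End.pow_apply]
    exact sub_eq_zero.2 (hs y)
  have h1 : (⊤ : Submodule ℂ S) ≤ P := by
    rw [← hss.iSup_eigenspace_eq_top]
    refine iSup_le fun μ y hy => ?_
    rw [End.mem_eigenspace_iff] at hy
    by_cases h0 : y = 0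
    · rw [h0]; exact P.zero_mem
    have h2 : ∀ k : ℕ, s^[k] y = μ ^ k • y := by
      intro k
      induction k with
      | zero => simp
      | succ k ih =>
        rw [Function.iterate_succ_apply', ih, map_smul, pow_succ, mul_smul]
        exact congrArg _ hy
    have h3 : μ ^ m = 1 := by
      have h4 := h2 m
      rw [hs] at h4
      have h5 : (μ ^ m - 1) • y = 0 := by rw [sub_smul, one_smul, ← h4, sub_self]
      exact sub_eq_zero.1 ((smul_eq_zero.1 h5).resolve_right h0)
    have : NeZero m := ⟨hm.ne'⟩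
    obtain ⟨i, hi, rfl⟩ := hζ.eq_pow_of_pow_eq_one h3
    exact h i hi y hy
  exact h1 Submodule.mem_top

theorem kac [IsKilling ℂ S] (s : S →ₗ⁅ℂ⁆ S) {m : ℕ} (hm : 0 < m) (hs : ∀ x, s^[m] x = x)
    (h0 : ∀ b, s b = b → IsNilpotent (ad ℂ S b)) (x : S) : x = 0 := by
  have hζ := Complex.isPrimitiveRoot_exp m hm.ne'
  set ζ := Complex.exp (2 * Real.pi * Complex.I / m)
  have hbij : Function.Bijective s := by
    obtain ⟨k, rfl⟩ := Nat.exists_eq_succ_of_ne_zero hm.ne'
    refine ⟨Function.LeftInverse.injective (g := s^[k]) fun y => hs y, fun y => ⟨s^[k] y, ?_⟩⟩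
    rw [← Function.iterate_succ_apply' s, hs]
  have hinv : ∀ y z, killingForm ℂ S (s y) (s z) = killingForm ℂ S y z := fun y z =>
    killingForm_of_equiv_apply (LieEquiv.ofBijective s hbij) y z
  have hnd : ∀ n < m, ∀ y, s y = ζ ^ n • y →
      (∀ z, s z = ζ ^ (m - n) • z → killingForm ℂ S y z = 0) → y = 0 := by
    intro n hn y hy h
    have h1 : ∀ z, z ∈ LinearMap.ker (killingForm ℂ S y) := by
      refine fix_ind s hm hs hζ _ fun i hi z hz => ?_
      rw [LinearMap.mem_ker]
      by_cases h2 : ζ ^ i = ζ ^ (m - n)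
      · exact h z (h2 ▸ hz)
      have h3 := hinv y z
      rw [hy, hz, map_smul, map_smul, LinearMap.smul_apply, smul_eq_mul, smul_eq_mul] at h3
      by_contra h4
      apply h2
      have h5 : ζ ^ n * ζ ^ (m - n) = 1 := by
        rw [← pow_add, Nat.add_sub_cancel' hn.le, hζ.pow_eq_one]
      have h6 : ζ ^ i * ζ ^ n = 1 := mul_right_cancel₀ h4 (by rw [mul_assoc, h3, one_mul])
      linear_combination (-ζ ^ i) * h5 + ζ ^ (m - n) * h6
    exact (IsKilling.killingForm_nondegenerate ℂ S).1 y h1
  have hbr : ∀ (a b : ℂ) (y z : S), s y = a • y → s z = b • z → s ⁅y, z⁆ = (a * b) • ⁅y, z⁆ := by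
    intro a b y z hy hz
    rw [LieHom.map_lie, hy, hz, smul_lie, lie_smul, mul_smul]
  have hz : ∀ y, s y = y → y = 0 := by
    let U : LieSubalgebra ℂ S :=
      { LinearMap.eqLocus (s : S →ₗ[ℂ] S) LinearMap.id with
        lie_mem' := fun {a b} ha hb => by
          have ha' : s a = a := ha
          have hb' : s b = b := hb
          show s ⁅a, b⁆ = ⁅a, b⁆
          rw [LieHom.map_lie, ha', hb'] }
    have : LieModule.IsNilpotent U S :=
      (LieModule.isNilpotent_iff_forall' (R := ℂ)).2 fun b => h0 b b.2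
    intro y hy
    refine hnd 0 hm y (by simpa using hy) fun z hz => ?_
    rw [Nat.sub_zero, hζ.pow_eq_one, one_smul] at hz
    have h1 := LieModule.traceForm_eq_zero_of_isNilpotent ℂ U S
    exact LinearMap.congr_fun₂ h1 ⟨y, hy⟩ ⟨z, hz⟩
  have key : ∀ n < m, ∀ y, s y = ζ ^ n • y → y = 0 := by
    intro n
    induction n using Nat.strong_induction_on with
    | _ n ih =>
    intro hn y hy
    rcases Nat.eq_zero_or_pos n with rfl | hn0
    · exact hz y (by simpa using hy)
    have hp : ∀ (r i : ℕ) (w : S), s w = ζ ^ i • w →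
        s ((ad ℂ S y ^ r) w) = ζ ^ (n * r + i) • (ad ℂ S y ^ r) w := by
      intro r i w hw
      induction r with
      | zero => simpa using hw
      | succ r ihr =>
        rw [pow_succ', End.mul_apply, ad_apply, hbr _ _ _ _ hy ihr, ← pow_add]
        congr 2
        ring
    have hnil : ad ℂ S y ^ m = 0 := by
      ext w
      refine fix_ind s hm hs hζ (LinearMap.ker (ad ℂ S y ^ m)) (fun i hi w hw => ?_) w
      set r := (m - i + n - 1) / n with hr
      have h1 : n * r + (m - i + n - 1) % n = m - i + n - 1 := Nat.div_add_mod _ _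
      have h2 : (m - i + n - 1) % n < n := Nat.mod_lt _ hn0
      have h3 : r ≤ n * r := Nat.le_mul_of_pos_left _ hn0
      have h4 : r ≤ m := by
        by_contra h5
        have h6 : n * (m + 1) ≤ n * r := Nat.mul_le_mul_left _ (by omega)
        have h7 : m ≤ n * m := Nat.le_mul_of_pos_left _ hn0
        rw [mul_add, mul_one] at h6
        omega
      have h5 := hp r i w hw
      have h6 : n * r + i = m + (n * r + i - m) := by omega
      rw [h6, pow_add, hζ.pow_eq_one, one_mul] at h5
      exact End.pow_map_zero_of_le h4 (ih _ (by omega) (by omega) _ h5)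
    refine hnd n hn y hy fun z hz' => ?_
    have h1 : ⁅y, z⁆ = 0 := by
      apply hz
      rw [hbr _ _ _ _ hy hz', ← pow_add, Nat.add_sub_cancel' hn.le, hζ.pow_eq_one, one_smul]
    have h2 : Commute (ad ℂ S y) (ad ℂ S z) := by
      ext w
      simp only [End.mul_apply, ad_apply]
      rw [leibniz_lie, h1, zero_lie, zero_add]
    rw [killingForm_apply_apply]
    exact (LinearMap.isNilpotent_trace_of_isNilpotent
      (h2.isNilpotent_mul_right ⟨m, hnil⟩)).eq_zero
  exact fix_ind s hm hs hζ ⊥ key x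

end Vale.Agent.P292
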