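import Vale.Agent.P292.FixA

/-! P292: a Lie algebra with an automorphism of finite order whose fixed vectors are ad-nilpotent
is solvable. -/

open LieAlgebra Module

namespace Vale.Agent.P292

variable {S : Type} [LieRing S] [LieAlgebra ℂ S] [Module.Finite ℂ S]

/-- The quotient map as a morphism of Lie algebras. -/
def mkL (I : LieIdeal ℂ S) : S →ₗ⁅ℂ⁆ S ⧸ I := { I.toSubmodule.mkQ with map_lie' := rfl }

omit [Module.Finite ℂ S] in
theorem mkL_surj (I : LieIdeal ℂ S) : Function.Surjective (mkL I) := Quot.mk_surjective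

omit [Module.Finite ℂ S] in
theorem mkL_zero (I : LieIdeal ℂ S) (x : S) : mkL I x = 0 ↔ x ∈ I :=
  Submodule.Quotient.mk_eq_zero I.toSubmodule

theorem le_rad {T : Type} [LieRing T] [LieAlgebra ℂ T] (f : S →ₗ⁅ℂ⁆ T)
    (hf : f.ker ≤ radical ℂ S) (I : LieIdeal ℂ T) [IsSolvable I] : I.comap f ≤ radical ℂ S := by
  obtain ⟨k, hk⟩ := IsSolvable.solvable ℂ I
  obtain ⟨l, hl⟩ := IsSolvable.solvable ℂ (radical ℂ S)
  rw [LieIdeal.derivedSeries_eq_bot_iff] at hk hl
  have h1 : ∀ j, derivedSeriesOfIdeal ℂ S j (I.comap f) ≤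
      (derivedSeriesOfIdeal ℂ T j I).comap f := by
    intro j
    induction j with
    | zero => exact le_rfl
    | succ j ih =>
      rw [derivedSeriesOfIdeal_succ, derivedSeriesOfIdeal_succ]
      exact (LieSubmodule.mono_lie ih ih).trans (LieIdeal.comap_bracket_le f)
  rw [← LieIdeal.solvable_iff_le_radical]
  refine IsSolvable.mk (R := ℂ) (k := l + k) ?_
  rw [LieIdeal.derivedSeries_eq_bot_iff, derivedSeriesOfIdeal_add, eq_bot_iff, ← hl]
  refine derivedSeriesOfIdeal_mono ((h1 k).trans ?_) l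
  rw [hk]
  exact hf

theorem solv_of_fix (s : S →ₗ⁅ℂ⁆ S) {m : ℕ} (hm : 0 < m) (hs : ∀ x, s^[m] x = x)
    (h0 : ∀ b, s b = b → IsNilpotent (ad ℂ S b)) : IsSolvable S := by
  set R := radical ℂ S
  have hπ : (mkL R).ker ≤ R := fun x hx => (mkL_zero R x).1 (LieHom.mem_ker.1 hx)
  obtain ⟨k, rfl⟩ := Nat.exists_eq_succ_of_ne_zero hm.ne'
  have hinj : Function.Injective s := Function.LeftInverse.injective (g := s^[k]) hs
  have h1 : ∀ j x, s^[j] x ∈ R → x ∈ R := by
    intro j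
    induction j with
    | zero => exact fun x h => h
    | succ j ih =>
      intro x hx
      exact le_rad s (by rw [s.ker_eq_bot.2 hinj]; exact bot_le) R (ih _ hx)
  have h2 : ∀ x ∈ R, s x ∈ R := fun x hx => h1 k _ (by rwa [← hs x] at hx)
  let s' : (S ⧸ R) →ₗ⁅ℂ⁆ S ⧸ R :=
    { R.toSubmodule.mapQ R.toSubmodule (s : S →ₗ[ℂ] S) h2 with
      map_lie' := fun {x y} => by
        obtain ⟨x, rfl⟩ := mkL_surj R x
        obtain ⟨y, rfl⟩ := mkL_surj R y
        show mkL R (s ⁅x, y⁆) = ⁅mkL R (s x), mkL R (s y)⁆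
        rw [LieHom.map_lie, LieHom.map_lie] }
  have h3 : ∀ x, s' (mkL R x) = mkL R (s x) := fun x => rfl
  have h4 : ∀ j x, s'^[j] (mkL R x) = mkL R (s^[j] x) := fun j x =>
    (Function.Semiconj.iterate_right (f := mkL R) (fun y => (h3 y).symm) j x).symm
  have : Module.Finite ℂ (S ⧸ R) := Module.Finite.of_surjective (mkL R : S →ₗ[ℂ] S ⧸ R) (mkL_surj R)
  have : HasTrivialRadical ℂ (S ⧸ R) := ⟨eq_bot_iff.2 fun x hx => by
    obtain ⟨x, rfl⟩ := mkL_surj R x
    exact (mkL_zero R x).2 (le_rad (mkL R) hπ (radical ℂ (S ⧸ R)) hx)⟩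
  have h5 : ∀ x : S ⧸ R, x = 0 := by
    refine kac s' hm (fun x => ?_) fun b hb => ?_
    · obtain ⟨x, rfl⟩ := mkL_surj R x
      rw [h4, hs]
    obtain ⟨b, rfl⟩ := mkL_surj R b
    have hk : ((k + 1 : ℕ) : ℂ) ≠ 0 := by exact_mod_cast hm.ne'
    obtain ⟨j, hj⟩ := h0 (((k + 1 : ℕ) : ℂ)⁻¹ • ∑ i ∈ Finset.range (k + 1), s^[i] b) (by
      rw [map_smul, map_sum]
      congr 1
      conv_rhs => rw [Finset.sum_range_succ']
      rw [Finset.sum_range_succ, ← Function.iterate_succ_apply' s k, hs]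
      simp only [Function.iterate_succ_apply', Function.iterate_zero, id])
    set c := ((k + 1 : ℕ) : ℂ)⁻¹ • ∑ i ∈ Finset.range (k + 1), s^[i] b
    have h6 : mkL R b = mkL R c := by
      simp only [c, map_smul, map_sum, ← h4, Function.iterate_fixed hb, Finset.sum_const,
        Finset.card_range]
      rw [← Nat.cast_smul_eq_nsmul ℂ, smul_smul, inv_mul_cancel₀ hk, one_smul]
    have h7 : ∀ i x, (ad ℂ _ (mkL R c) ^ i) (mkL R x) = mkL R ((ad ℂ S c ^ i) x) := by
      intro i x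
      induction i with
      | zero => rfl
      | succ i ih => rw [pow_succ', pow_succ', End.mul_apply, End.mul_apply, ih, ad_apply, ad_apply,
          LieHom.map_lie]
    refine ⟨j, LinearMap.ext fun x => ?_⟩
    obtain ⟨x, rfl⟩ := mkL_surj R x
    rw [h6, h7, hj, LinearMap.zero_apply, LinearMap.zero_apply, map_zero]
  have h6 : Function.Surjective R.incl := fun x => ⟨⟨x, (mkL_zero R x).1 (h5 _)⟩, rfl⟩
  exact h6.lieAlgebra_isSolvable

end Vale.Agent.P292
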